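import Mathlib

namespace Vale.Agent.P072

theorem scalar_core_lower (cmin cmax C3 : ℝ) (h0 : 0 < cmin) (h1 : cmin ≤ cmax) (hC : 0 ≤ C3) :
    ∃ C4 : ℝ, 0 ≤ C4 ∧ ∀ c s : ℝ, cmin ≤ c → c ≤ cmax → 0 < s →
      -C4 ≤ (s - c) * Real.log s - C3 * |s - c| := by
  have hcmax : 0 < cmax := lt_of_lt_of_le h0 h1
  have hE : 0 < Real.exp C3 := Real.exp_pos _
  have ha : 0 ≤ |Real.log cmin| := abs_nonneg _
  have hb : 0 ≤ |Real.log cmax| := abs_nonneg _
  refine ⟨(Real.exp C3 + cmax) * (C3 + |Real.log cmin| + |Real.log cmax|), by positivity,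
    fun c s hc1 hc2 hs => ?_⟩
  have hc : 0 < c := lt_of_lt_of_le h0 hc1
  rcases le_or_gt c s with hcs | hcs
  · rw [abs_of_nonneg (sub_nonneg.mpr hcs)]
    rcases le_or_gt C3 (Real.log s) with hl | hl
    · have : 0 ≤ (s - c) * (Real.log s - C3) :=
        mul_nonneg (sub_nonneg.mpr hcs) (sub_nonneg.mpr hl)
      have h2 : 0 ≤ (Real.exp C3 + cmax) * (C3 + |Real.log cmin| + |Real.log cmax|) := by
        positivity
      nlinarith
    · have hsE : s < Real.exp C3 := (Real.log_lt_iff_lt_exp hs).mp hl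
      have h2 : Real.log cmin ≤ Real.log s := Real.log_le_log h0 (hc1.trans hcs)
      have h3 : -|Real.log cmin| ≤ Real.log cmin := neg_abs_le _
      have h4 : (s - c) * (C3 - Real.log s) ≤ Real.exp C3 * (C3 + |Real.log cmin|) := by
        apply mul_le_mul (by linarith) (by linarith) (by linarith) hE.le
      have h5 : Real.exp C3 * (C3 + |Real.log cmin|) ≤
          (Real.exp C3 + cmax) * (C3 + |Real.log cmin| + |Real.log cmax|) := by
        apply mul_le_mul (by linarith) (by linarith) (by positivity) (by positivity)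
      nlinarith
  · rw [abs_of_neg (sub_neg.mpr hcs)]
    rcases le_or_gt C3 (-Real.log s) with hl | hl
    · have : 0 ≤ (c - s) * (-Real.log s - C3) :=
        mul_nonneg (sub_nonneg.mpr hcs.le) (sub_nonneg.mpr hl)
      have h2 : 0 ≤ (Real.exp C3 + cmax) * (C3 + |Real.log cmin| + |Real.log cmax|) := by
        positivity
      nlinarith
    · have h2 : Real.log s ≤ Real.log cmax := Real.log_le_log hs (hcs.le.trans hc2)
      have h3 : Real.log cmax ≤ |Real.log cmax| := le_abs_self _
      have h4 : (c - s) * (C3 + Real.log s) ≤ cmax * (C3 + |Real.log cmax|) := by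
        apply mul_le_mul (by linarith) (by linarith) (by linarith) hcmax.le
      have h5 : cmax * (C3 + |Real.log cmax|) ≤
          (Real.exp C3 + cmax) * (C3 + |Real.log cmin| + |Real.log cmax|) := by
        apply mul_le_mul (by linarith) (by linarith) (by positivity) (by positivity)
      nlinarith

theorem scalar_core_bounds (cmin cmax C3 A : ℝ) (h0 : 0 < cmin) (h1 : cmin ≤ cmax) (hC : 0 ≤ C3) :
    ∃ lo hi : ℝ, 0 < lo ∧ lo ≤ hi ∧ ∀ c s : ℝ, cmin ≤ c → c ≤ cmax → 0 < s →
      (s - c) * Real.log s - C3 * |s - c| ≤ A → lo ≤ s ∧ s ≤ hi := by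
  set A' : ℝ := max A 0 with hA'
  have hA0 : 0 ≤ A' := le_max_right _ _
  have hAA : A ≤ A' := le_max_left _ _
  refine ⟨min (cmin / 2) (Real.exp (-(C3 + 2 * (A' + 1) / cmin))),
    max (cmax + 1) (Real.exp (C3 + A' + 1)), lt_min (by positivity) (Real.exp_pos _), ?_,
    fun c s hc1 hc2 hs hψ => ⟨?_, ?_⟩⟩
  · calc min (cmin / 2) (Real.exp (-(C3 + 2 * (A' + 1) / cmin))) ≤ cmin / 2 := min_le_left _ _
      _ ≤ cmax + 1 := by linarith
      _ ≤ _ := le_max_left _ _
  · by_contra hcon
    push Not at hcon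
    have k1 : s < cmin / 2 := hcon.trans_le (min_le_left _ _)
    have k2 : s < Real.exp (-(C3 + 2 * (A' + 1) / cmin)) := hcon.trans_le (min_le_right _ _)
    have k3 : Real.log s < -(C3 + 2 * (A' + 1) / cmin) := (Real.log_lt_iff_lt_exp hs).mpr k2
    have hcs : s - c < 0 := by linarith
    rw [abs_of_neg hcs] at hψ
    have k4 : cmin / 2 * (2 * (A' + 1) / cmin) ≤ (c - s) * (-Real.log s - C3) := by
      apply mul_le_mul (by linarith) (by linarith) (by positivity) (by linarith)
    have k5 : cmin / 2 * (2 * (A' + 1) / cmin) = A' + 1 := by field_simp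
    nlinarith
  · by_contra hcon
    push Not at hcon
    have k1 : cmax + 1 < s := (le_max_left _ _).trans_lt hcon
    have k2 : Real.exp (C3 + A' + 1) < s := (le_max_right _ _).trans_lt hcon
    have k3 : C3 + A' + 1 < Real.log s := (Real.lt_log_iff_exp_lt hs).mpr k2
    have hcs : 0 < s - c := by linarith
    rw [abs_of_pos hcs] at hψ
    have k4 : 1 * (A' + 1) ≤ (s - c) * (Real.log s - C3) := by
      apply mul_le_mul (by linarith) (by linarith) (by positivity) (by linarith)
    nlinarith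

end Vale.Agent.P072
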