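import Mathlib

namespace Vale.Agent.P072

theorem fibre_key {d : ℕ} (x z : Fin d → ℝ) (hx : ∀ i, 0 < x i) (hz : z ≠ 0) :
    ∃ σ : ℝ, 0 ≤ σ ∧ (∀ i, 0 < x i + σ * z i) ∧
      0 ≤ ∑ i, z i * Real.log (x i + σ * z i) := by
  classical
  set M : ℝ := ∑ i, |z i| * |Real.log (x i)| with hM
  have hM0 : 0 ≤ M := Finset.sum_nonneg (fun i _ => by positivity)
  have hterm : ∀ σ : ℝ, 0 ≤ σ → (∀ i, 0 < x i + σ * z i) → ∀ i,
      -(|z i| * |Real.log (x i)|) ≤ z i * Real.log (x i + σ * z i) := by
    intro σ hσ hpos i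
    have h1 : z i * Real.log (x i) ≤ z i * Real.log (x i + σ * z i) := by
      rcases le_total 0 (z i) with h | h
      · apply mul_le_mul_of_nonneg_left _ h
        apply Real.log_le_log (hx i)
        nlinarith [mul_nonneg hσ h]
      · apply mul_le_mul_of_nonpos_left _ h
        apply Real.log_le_log (hpos i)
        nlinarith [mul_nonneg hσ (neg_nonneg.mpr h)]
    have h2 : -(|z i| * |Real.log (x i)|) ≤ z i * Real.log (x i) := by
      rw [← abs_mul]; exact neg_abs_le _
    linarith
  have hsum : ∀ σ : ℝ, 0 ≤ σ → (∀ i, 0 < x i + σ * z i) → ∀ i0,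
      M ≤ z i0 * Real.log (x i0 + σ * z i0) →
      0 ≤ ∑ i, z i * Real.log (x i + σ * z i) := by
    intro σ hσ hpos i0 h0
    rw [← Finset.add_sum_erase _ _ (Finset.mem_univ i0)]
    have h3 : -M ≤ ∑ i ∈ Finset.univ.erase i0, z i * Real.log (x i + σ * z i) := by
      have h4 : ∑ i ∈ Finset.univ.erase i0, |z i| * |Real.log (x i)| ≤ M :=
        Finset.sum_le_sum_of_subset_of_nonneg (Finset.erase_subset _ _)
          (fun i _ _ => by positivity)
      have h5 : ∑ i ∈ Finset.univ.erase i0, -(|z i| * |Real.log (x i)|)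
          ≤ ∑ i ∈ Finset.univ.erase i0, z i * Real.log (x i + σ * z i) :=
        Finset.sum_le_sum (fun i _ => hterm σ hσ hpos i)
      rw [Finset.sum_neg_distrib] at h5
      linarith
    linarith
  by_cases hneg : ∃ i, z i < 0
  · -- some negative coordinate
    have hne : (Finset.univ.filter (fun i => z i < 0)).Nonempty := by
      obtain ⟨i, hi⟩ := hneg
      exact ⟨i, by simp [hi]⟩
    obtain ⟨i0, hi0, hmin⟩ := Finset.exists_min_image _ (fun i => x i / |z i|) hne
    have hz0 : z i0 < 0 := by simpa using hi0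
    have hab : |z i0| = -z i0 := abs_of_neg hz0
    have hapos : 0 < |z i0| := abs_pos.mpr hz0.ne
    set sp : ℝ := x i0 / |z i0| with hsp
    have hsppos : 0 < sp := div_pos (hx i0) hapos
    set η : ℝ := min sp (Real.exp (-(M / |z i0|)) / |z i0|) with hη
    have hηpos : 0 < η := lt_min hsppos (div_pos (Real.exp_pos _) hapos)
    have hηle : η ≤ sp := min_le_left _ _
    have hηle2 : η * |z i0| ≤ Real.exp (-(M / |z i0|)) := by
      have : η ≤ Real.exp (-(M / |z i0|)) / |z i0| := min_le_right _ _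
      rwa [le_div_iff₀ hapos] at this
    have hσ0 : 0 ≤ sp - η := by linarith
    have hspz : sp * |z i0| = x i0 := by
      rw [hsp]; field_simp
    have hpos : ∀ i, 0 < x i + (sp - η) * z i := by
      intro i
      rcases le_or_gt 0 (z i) with h | h
      · have := mul_nonneg hσ0 h
        linarith [hx i]
      · have hm : sp ≤ x i / |z i| := hmin i (by simp [h])
        have hai : 0 < |z i| := abs_pos.mpr h.ne
        rw [le_div_iff₀ hai] at hm
        have habi : |z i| = -z i := abs_of_neg h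
        have : 0 < η * |z i| := mul_pos hηpos hai
        rw [habi] at hm this
        nlinarith
    refine ⟨sp - η, hσ0, hpos, hsum _ hσ0 hpos i0 ?_⟩
    have he : x i0 + (sp - η) * z i0 = η * |z i0| := by
      rw [hab] at hspz ⊢
      linarith
    rw [he]
    have hl : Real.log (η * |z i0|) ≤ -(M / |z i0|) := by
      have := Real.log_le_log (mul_pos hηpos hapos) hηle2
      rwa [Real.log_exp] at this
    have h6 : |z i0| * (M / |z i0|) = M := by field_simp
    have h7 : |z i0| * Real.log (η * |z i0|) ≤ |z i0| * (-(M / |z i0|)) :=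
      mul_le_mul_of_nonneg_left hl hapos.le
    have h8 : z i0 = -|z i0| := by rw [hab]; ring
    calc M = -(|z i0| * (-(M / |z i0|))) := by rw [mul_neg, neg_neg, h6]
      _ ≤ -(|z i0| * Real.log (η * |z i0|)) := by linarith
      _ = z i0 * Real.log (η * |z i0|) := by
          generalize Real.log (η * |z i0|) = L
          rw [hab]; ring
  · -- all coordinates nonnegative
    have hnn : ∀ i, 0 ≤ z i := fun i => not_lt.mp (fun h => hneg ⟨i, h⟩)
    obtain ⟨i0, hi0⟩ := Function.ne_iff.mp hz
    have hz0 : 0 < z i0 := lt_of_le_of_ne (hnn i0) (Ne.symm hi0)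
    set σ : ℝ := Real.exp (M / z i0) / z i0 with hσ
    have hσ0 : 0 ≤ σ := (div_pos (Real.exp_pos _) hz0).le
    have hpos : ∀ i, 0 < x i + σ * z i := by
      intro i
      have := mul_nonneg hσ0 (hnn i)
      linarith [hx i]
    refine ⟨σ, hσ0, hpos, hsum _ hσ0 hpos i0 ?_⟩
    have h1 : σ * z i0 = Real.exp (M / z i0) := by rw [hσ]; field_simp
    have h2 : M / z i0 ≤ Real.log (x i0 + σ * z i0) := by
      rw [h1, Real.le_log_iff_exp_le (by linarith [hx i0, Real.exp_pos (M / z i0)])]
      linarith [hx i0]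
    calc M = z i0 * (M / z i0) := by field_simp
      _ ≤ z i0 * Real.log (x i0 + σ * z i0) := mul_le_mul_of_nonneg_left h2 hz0.le

/-- On the open segment `{σ : x + σ z > 0}` the increasing function `σ ↦ ∑ z_i log (x_i + σ z_i)`
has a zero. -/
theorem exists_fibre_min {d : ℕ} (x z : Fin d → ℝ) (hx : ∀ i, 0 < x i) (hz : z ≠ 0) :
    ∃ σ : ℝ, (∀ i, 0 < x i + σ * z i) ∧ ∑ i, z i * Real.log (x i + σ * z i) = 0 := by
  obtain ⟨σ1, h10, h1p, h1g⟩ := fibre_key x z hx hz
  obtain ⟨σ2, h20, h2p, h2g⟩ := fibre_key x (-z) hx (neg_ne_zero.mpr hz)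
  have hposall : ∀ σ ∈ Set.Icc (-σ2) σ1, ∀ i, 0 < x i + σ * z i := by
    intro σ hσ i
    have a1 := h1p i
    have a2 := h2p i
    simp only [Pi.neg_apply] at a2
    rcases le_total 0 (z i) with h | h
    · have : (-σ2) * z i ≤ σ * z i := mul_le_mul_of_nonneg_right hσ.1 h
      linarith
    · have : σ1 * z i ≤ σ * z i := mul_le_mul_of_nonpos_right hσ.2 h
      linarith
  have hcont : ContinuousOn (fun σ : ℝ => ∑ i, z i * Real.log (x i + σ * z i))
      (Set.Icc (-σ2) σ1) := by
    apply continuousOn_finsetSum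
    intro i _
    apply ContinuousOn.mul continuousOn_const
    apply ContinuousOn.log (by fun_prop)
    intro σ hσ
    exact (hposall σ hσ i).ne'
  have hle : -σ2 ≤ σ1 := by linarith
  have hlow : ∑ i, z i * Real.log (x i + (-σ2) * z i) ≤ 0 := by
    have : ∑ i, (-z) i * Real.log (x i + σ2 * (-z) i)
        = -∑ i, z i * Real.log (x i + (-σ2) * z i) := by
      rw [← Finset.sum_neg_distrib]
      apply Finset.sum_congr rfl
      intro i _
      simp only [Pi.neg_apply]
      have : x i + σ2 * -z i = x i + -σ2 * z i := by ring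
      rw [this]; ring
    rw [this] at h2g
    linarith
  have hmem : (0 : ℝ) ∈ Set.Icc (∑ i, z i * Real.log (x i + (-σ2) * z i))
      (∑ i, z i * Real.log (x i + σ1 * z i)) := ⟨hlow, h1g⟩
  obtain ⟨σ, hσ, hσe⟩ := intermediate_value_Icc hle hcont hmem
  exact ⟨σ, hposall σ hσ, hσe⟩

end Vale.Agent.P072
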