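import Mathlib

/-!
# Global Caratheodory solutions of bounded, globally Lipschitz ODEs with measurable time dependence
-/

namespace Vale.Agent.P072

open MeasureTheory Filter Topology
open scoped NNReal

section Picard

variable {E : Type*} [NormedAddCommGroup E] [NormedSpace ℝ E]

/-- the Picard operator -/
private noncomputable def pic (g : ℝ → E → E) (x₀ : E) (β : ℝ → E) : ℝ → E :=
  fun t => x₀ + ∫ s in (0 : ℝ)..t, g s (β s)

/-- the Picard iterates -/
private noncomputable def picSeq (g : ℝ → E → E) (x₀ : E) : ℕ → ℝ → E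
  | 0 => fun _ => x₀
  | n + 1 => pic g x₀ (picSeq g x₀ n)

omit [NormedSpace ℝ E] in
private theorem ii_of_cont (g : ℝ → E → E) (M : ℝ≥0) (hM : ∀ t x, ‖g t x‖ ≤ M)
    (hmeas : ∀ α : ℝ → E, Continuous α → AEStronglyMeasurable (fun t => g t (α t)) volume)
    (β : ℝ → E) (hβ : Continuous β) (a b : ℝ) :
    IntervalIntegrable (fun s => g s (β s)) volume a b :=
  (intervalIntegrable_const (c := (M : ℝ))).mono_fun' (hmeas β hβ).restrict
    (ae_of_all _ (fun s => hM s (β s)))

private theorem pic_dist_le (g : ℝ → E → E) (M : ℝ≥0) (hM : ∀ t x, ‖g t x‖ ≤ M)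
    (hmeas : ∀ α : ℝ → E, Continuous α → AEStronglyMeasurable (fun t => g t (α t)) volume)
    (x₀ : E) (β : ℝ → E) (hβ : Continuous β) (s t : ℝ) :
    dist (pic g x₀ β s) (pic g x₀ β t) ≤ M * dist s t := by
  have h1 := ii_of_cont g M hM hmeas β hβ 0 s
  have h2 := ii_of_cont g M hM hmeas β hβ 0 t
  have h3 : pic g x₀ β s - pic g x₀ β t = ∫ u in t..s, g u (β u) := by
    unfold pic
    rw [add_sub_add_left_eq_sub, intervalIntegral.integral_interval_sub_left h1 h2]
  rw [dist_eq_norm, h3, Real.dist_eq]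
  exact intervalIntegral.norm_integral_le_of_norm_le_const (fun u _ => hM u (β u))

private theorem pic_cont (g : ℝ → E → E) (M : ℝ≥0) (hM : ∀ t x, ‖g t x‖ ≤ M)
    (hmeas : ∀ α : ℝ → E, Continuous α → AEStronglyMeasurable (fun t => g t (α t)) volume)
    (x₀ : E) (β : ℝ → E) (hβ : Continuous β) : Continuous (pic g x₀ β) :=
  (LipschitzWith.of_dist_le_mul (K := M) (pic_dist_le g M hM hmeas x₀ β hβ)).continuous

private theorem picSeq_cont (g : ℝ → E → E) (M : ℝ≥0) (hM : ∀ t x, ‖g t x‖ ≤ M)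
    (hmeas : ∀ α : ℝ → E, Continuous α → AEStronglyMeasurable (fun t => g t (α t)) volume)
    (x₀ : E) (n : ℕ) : Continuous (picSeq g x₀ n) := by
  induction n with
  | zero => exact continuous_const
  | succ n ih => exact pic_cont g M hM hmeas x₀ _ ih

private theorem picSeq_dist_le (g : ℝ → E → E) (M : ℝ≥0) (hM : ∀ t x, ‖g t x‖ ≤ M)
    (hmeas : ∀ α : ℝ → E, Continuous α → AEStronglyMeasurable (fun t => g t (α t)) volume)
    (x₀ : E) (n : ℕ) (s t : ℝ) :
    dist (picSeq g x₀ n s) (picSeq g x₀ n t) ≤ M * dist s t := by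
  cases n with
  | zero =>
    simp only [picSeq, dist_self]
    positivity
  | succ n => exact pic_dist_le g M hM hmeas x₀ _ (picSeq_cont g M hM hmeas x₀ n) s t

/-- the increments of the Picard iterates -/
private theorem picSeq_step (g : ℝ → E → E) (K M : ℝ≥0) (hLip : ∀ t, LipschitzWith K (g t))
    (hM : ∀ t x, ‖g t x‖ ≤ M)
    (hmeas : ∀ α : ℝ → E, Continuous α → AEStronglyMeasurable (fun t => g t (α t)) volume)
    (x₀ : E) (n : ℕ) (t : ℝ) (ht : 0 ≤ t) :
    ‖picSeq g x₀ (n + 1) t - picSeq g x₀ n t‖ ≤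
      (M : ℝ) * (K : ℝ) ^ n * t ^ (n + 1) / (n + 1).factorial := by
  induction n generalizing t with
  | zero =>
    have h : picSeq g x₀ 1 t - picSeq g x₀ 0 t = ∫ s in (0 : ℝ)..t, g s x₀ := by
      simp [picSeq, pic]
    rw [h]
    have := intervalIntegral.norm_integral_le_of_norm_le_const (a := 0) (b := t)
      (f := fun s => g s x₀) (C := M) (fun u _ => hM u x₀)
    simpa [abs_of_nonneg ht] using this
  | succ n ih =>
    have c1 := picSeq_cont g M hM hmeas x₀ (n + 1)
    have c0 := picSeq_cont g M hM hmeas x₀ n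
    have i1 := ii_of_cont g M hM hmeas _ c1 0 t
    have i0 := ii_of_cont g M hM hmeas _ c0 0 t
    have h : picSeq g x₀ (n + 2) t - picSeq g x₀ (n + 1) t =
        ∫ s in (0 : ℝ)..t, (g s (picSeq g x₀ (n + 1) s) - g s (picSeq g x₀ n s)) := by
      rw [intervalIntegral.integral_sub i1 i0]
      simp [picSeq, pic]
    rw [h]
    have hb : ∀ᵐ s, s ∈ Set.Ioc 0 t →
        ‖g s (picSeq g x₀ (n + 1) s) - g s (picSeq g x₀ n s)‖ ≤
          (K : ℝ) * ((M : ℝ) * (K : ℝ) ^ n * s ^ (n + 1) / (n + 1).factorial) := by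
      refine ae_of_all _ (fun s hs => ?_)
      have h1 := (hLip s).dist_le_mul (picSeq g x₀ (n + 1) s) (picSeq g x₀ n s)
      rw [dist_eq_norm, dist_eq_norm] at h1
      exact h1.trans (mul_le_mul_of_nonneg_left (ih s hs.1.le) K.coe_nonneg)
    have hint : IntervalIntegrable (fun s : ℝ =>
        (K : ℝ) * ((M : ℝ) * (K : ℝ) ^ n * s ^ (n + 1) / (n + 1).factorial)) volume 0 t := by
      apply Continuous.intervalIntegrable
      fun_prop
    refine (intervalIntegral.norm_integral_le_of_norm_le ht hb hint).trans (le_of_eq ?_)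
    have e : (fun s : ℝ => (K : ℝ) * ((M : ℝ) * (K : ℝ) ^ n * s ^ (n + 1) / (n + 1).factorial))
        = fun s : ℝ => ((K : ℝ) * ((M : ℝ) * (K : ℝ) ^ n) / (n + 1).factorial) * s ^ (n + 1) := by
      funext s
      ring
    rw [e, intervalIntegral.integral_const_mul, integral_pow]
    have hf : ((n + 1 + 1).factorial : ℝ) = ((n : ℝ) + 1 + 1) * (n + 1).factorial := by
      rw [Nat.factorial_succ (n + 1)]
      push_cast
      ring
    rw [hf]
    have h1 : ((n + 1).factorial : ℝ) ≠ 0 := by positivity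
    have h2 : ((n : ℝ) + 1 + 1) ≠ 0 := by positivity
    push_cast
    field_simp
    ring

end Picard

/-- Global solution (in integral form) of `x' = g t x` on `[0, ∞)` when `g` is bounded, globally
Lipschitz in space, and measurable along continuous curves. -/
theorem exists_caratheodory_solution {E : Type*} [NormedAddCommGroup E] [NormedSpace ℝ E]
    [CompleteSpace E] (g : ℝ → E → E) (K M : ℝ≥0) (hLip : ∀ t, LipschitzWith K (g t))
    (hM : ∀ t x, ‖g t x‖ ≤ M)
    (hmeas : ∀ α : ℝ → E, Continuous α → AEStronglyMeasurable (fun t => g t (α t)) volume)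
    (x₀ : E) :
    ∃ α : ℝ → E, Continuous α ∧ α 0 = x₀ ∧
      ∀ t, 0 ≤ t → α t = x₀ + ∫ s in (0 : ℝ)..t, g s (α s) := by
  classical
  -- the majorant series
  set b : ℝ → ℕ → ℝ := fun T n => (M : ℝ) * (K : ℝ) ^ n * T ^ (n + 1) / (n + 1).factorial with hb
  have hbsum : ∀ T : ℝ, Summable (b T) := by
    intro T
    have h1 : Summable (fun n : ℕ => ((K : ℝ) * T) ^ n / n.factorial) :=
      Real.summable_pow_div_factorial _
    have h2 : Summable (fun n : ℕ => ((M : ℝ) * |T|) * (|((K : ℝ) * T)| ^ n / n.factorial)) :=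
      (Real.summable_pow_div_factorial _).mul_left _
    refine Summable.of_norm_bounded h2 (fun n => ?_)
    rw [hb]
    simp only
    rw [Real.norm_eq_abs, abs_div, abs_mul, abs_mul, abs_pow, abs_pow, abs_mul,
      abs_of_nonneg M.coe_nonneg, abs_of_nonneg K.coe_nonneg, Nat.abs_cast, mul_pow, pow_succ]
    have hfac : (n.factorial : ℝ) ≤ (n + 1).factorial := by
      exact_mod_cast Nat.factorial_le (Nat.le_succ n)
    have hpos : (0 : ℝ) < n.factorial := by positivity
    calc (M : ℝ) * (K : ℝ) ^ n * (|T| ^ n * |T|) / ((n + 1).factorial : ℝ)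
        ≤ (M : ℝ) * (K : ℝ) ^ n * (|T| ^ n * |T|) / (n.factorial : ℝ) := by
          apply div_le_div_of_nonneg_left _ hpos hfac
          positivity
      _ = (M : ℝ) * |T| * ((K : ℝ) ^ n * |T| ^ n / (n.factorial : ℝ)) := by ring
  have hbmono : ∀ s T : ℝ, 0 ≤ s → s ≤ T → ∀ n, b s n ≤ b T n := by
    intro s T hs hsT n
    rw [hb]
    simp only
    apply div_le_div_of_nonneg_right _ (by positivity)
    apply mul_le_mul_of_nonneg_left (pow_le_pow_left₀ hs hsT _)
    positivity
  set a := picSeq g x₀ with ha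
  have hstep : ∀ t : ℝ, 0 ≤ t → ∀ n, dist (a n t) (a (n + 1) t) ≤ b t n := by
    intro t ht n
    rw [dist_comm, dist_eq_norm]
    exact picSeq_step g K M hLip hM hmeas x₀ n t ht
  have hcau : ∀ t : ℝ, 0 ≤ t → CauchySeq (fun n => a n t) := fun t ht =>
    cauchySeq_of_dist_le_of_summable (b t) (hstep t ht) (hbsum t)
  have hlim : ∀ t : ℝ, 0 ≤ t → ∃ y, Tendsto (fun n => a n t) atTop (𝓝 y) := fun t ht =>
    cauchySeq_tendsto_of_complete (hcau t ht)
  choose! L hL using hlim
  set α : ℝ → E := fun t => L (max t 0) with hα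
  have hαt : ∀ t : ℝ, Tendsto (fun n => a n (max t 0)) atTop (𝓝 (α t)) := fun t =>
    hL _ (le_max_right _ _)
  have hαlip : ∀ s t : ℝ, dist (α s) (α t) ≤ M * dist s t := by
    intro s t
    have h1 : Tendsto (fun n => dist (a n (max s 0)) (a n (max t 0))) atTop
        (𝓝 (dist (α s) (α t))) := (hαt s).dist (hαt t)
    refine le_of_tendsto h1 (Eventually.of_forall (fun n => ?_))
    refine (picSeq_dist_le g M hM hmeas x₀ n _ _).trans ?_
    apply mul_le_mul_of_nonneg_left _ M.coe_nonneg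
    rw [Real.dist_eq, Real.dist_eq]
    exact abs_max_sub_max_le_abs _ _ _
  have hαc : Continuous α := (LipschitzWith.of_dist_le_mul (K := M) hαlip).continuous
  have hαpos : ∀ t : ℝ, 0 ≤ t → Tendsto (fun n => a n t) atTop (𝓝 (α t)) := by
    intro t ht
    have := hαt t
    rwa [max_eq_left ht] at this
  -- uniform tail bound
  have htail : ∀ T s : ℝ, 0 ≤ s → s ≤ T → ∀ n, dist (a n s) (α s) ≤ ∑' m, b T (n + m) := by
    intro T s hs hsT n
    exact dist_le_tsum_of_dist_le_of_tendsto (b T)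
      (fun k => (hstep s hs k).trans (hbmono s T hs hsT k)) (hbsum T) (hαpos s hs) n
  have heq : ∀ t, 0 ≤ t → α t = x₀ + ∫ s in (0 : ℝ)..t, g s (α s) := by
    intro t ht
    have h1 : Tendsto (fun n => a (n + 1) t) atTop (𝓝 (α t)) :=
      (hαpos t ht).comp (tendsto_add_atTop_nat 1)
    have h2 : Tendsto (fun n => a (n + 1) t) atTop (𝓝 (x₀ + ∫ s in (0 : ℝ)..t, g s (α s))) := by
      have h3 : Tendsto (fun n => ∑' m, b t (m + n)) atTop (𝓝 0) := tendsto_sum_nat_add (b t)
      have h4 : Tendsto (fun n => (K : ℝ) * (∑' m, b t (m + n)) * |t - 0|) atTop (𝓝 0) := by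
        have := (h3.const_mul (K : ℝ)).mul_const (|t - 0|)
        simpa using this
      rw [tendsto_iff_dist_tendsto_zero]
      refine squeeze_zero (fun _ => dist_nonneg) (fun n => ?_) h4
      have c0 := picSeq_cont g M hM hmeas x₀ n
      have i1 := ii_of_cont g M hM hmeas _ c0 0 t
      have i0 := ii_of_cont g M hM hmeas _ hαc 0 t
      have e : a (n + 1) t - (x₀ + ∫ s in (0 : ℝ)..t, g s (α s)) =
          ∫ s in (0 : ℝ)..t, (g s (a n s) - g s (α s)) := by
        rw [intervalIntegral.integral_sub i1 i0]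
        simp [ha, picSeq, pic]
      rw [dist_eq_norm, e]
      apply intervalIntegral.norm_integral_le_of_norm_le_const
      intro s hs
      rw [Set.uIoc_of_le ht] at hs
      have h5 := (hLip s).dist_le_mul (a n s) (α s)
      rw [dist_eq_norm] at h5
      refine h5.trans (mul_le_mul_of_nonneg_left ?_ K.coe_nonneg)
      have h6 := htail t s hs.1.le hs.2 n
      have h7 : (∑' m, b t (n + m)) = ∑' m, b t (m + n) := by
        simp only [add_comm]
      rwa [h7] at h6
    exact tendsto_nhds_unique h1 h2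
  refine ⟨α, hαc, ?_, heq⟩
  have := heq 0 le_rfl
  simpa using this

end Vale.Agent.P072
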