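import Mathlib

namespace Vale.Agent.P072

/-- A two-dimensional subspace of `ℝ^d` is mapped injectively to `ℝ^2` by some pair of
coordinates. -/
theorem exists_inj_pair {d : ℕ} (S : Submodule ℝ (Fin d → ℝ)) (h : Module.finrank ℝ S = 2) :
    ∃ i j : Fin d, (∀ u ∈ S, u i = 0 → u j = 0 → u = 0) ∧
      ∃ v1 ∈ S, ∃ v2 ∈ S, v1 i * v2 j - v1 j * v2 i ≠ 0 := by
  have : Module.Finite ℝ S := Module.finite_of_finrank_pos (by rw [h]; norm_num)
  set b := Module.finBasisOfFinrankEq ℝ S h with hb
  set v1 : Fin d → ℝ := (b 0 : Fin d → ℝ) with hv1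
  set v2 : Fin d → ℝ := (b 1 : Fin d → ℝ) with hv2
  have hli := b.linearIndependent
  have hpair : ∀ x y : ℝ, x • v1 + y • v2 = 0 → x = 0 ∧ y = 0 := by
    intro x y hxy
    have h2 : x • b 0 + y • b 1 = 0 := by
      apply Subtype.ext
      simpa using hxy
    have h3 := (LinearIndependent.pair_iff.mp
      (by
        have := hli.comp ![0, 1] (by
          intro p q hpq
          fin_cases p <;> fin_cases q <;> simp_all)
        convert this using 1
        funext p
        fin_cases p <;> rfl : LinearIndependent ℝ ![b 0, b 1])) x y h2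
    exact h3
  have hv1ne : v1 ≠ 0 := by
    intro h0
    have := hpair 1 0 (by rw [h0]; simp)
    exact one_ne_zero this.1
  obtain ⟨i, hi⟩ : ∃ i, v1 i ≠ 0 := by
    by_contra hcon
    push Not at hcon
    exact hv1ne (funext hcon)
  have hw : v1 i • v2 - v2 i • v1 ≠ 0 := by
    intro h0
    have := hpair (-(v2 i)) (v1 i) (by rw [← h0]; simp only [neg_smul]; abel)
    exact hi this.2
  obtain ⟨j, hj⟩ : ∃ j, (v1 i • v2 - v2 i • v1) j ≠ 0 := by
    by_contra hcon
    push Not at hcon
    exact hw (funext hcon)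
  have hΔ : v1 i * v2 j - v1 j * v2 i ≠ 0 := by
    intro h0
    apply hj
    simp only [Pi.sub_apply, Pi.smul_apply, smul_eq_mul]
    linarith
  refine ⟨i, j, ?_, v1, (b 0).2, v2, (b 1).2, hΔ⟩
  intro u hu hui huj
  have hrep := b.sum_repr ⟨u, hu⟩
  rw [Fin.sum_univ_two] at hrep
  set x := b.repr ⟨u, hu⟩ 0 with hx
  set y := b.repr ⟨u, hu⟩ 1 with hy
  have hu' : u = x • v1 + y • v2 := by
    have := congrArg (Subtype.val) hrep
    simpa using this.symm
  have e1 : x * v1 i + y * v2 i = 0 := by
    have := congrFun hu' i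
    simp only [Pi.add_apply, Pi.smul_apply, smul_eq_mul] at this
    linarith
  have e2 : x * v1 j + y * v2 j = 0 := by
    have := congrFun hu' j
    simp only [Pi.add_apply, Pi.smul_apply, smul_eq_mul] at this
    linarith
  have hx0 : x = 0 := by
    have : x * (v1 i * v2 j - v1 j * v2 i) = 0 := by linear_combination v2 j * e1 - v2 i * e2
    exact (mul_eq_zero.mp this).resolve_right hΔ
  have hy0 : y = 0 := by
    have : y * (v1 i * v2 j - v1 j * v2 i) = 0 := by linear_combination v1 i * e2 - v1 j * e1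
    exact (mul_eq_zero.mp this).resolve_right hΔ
  rw [hu', hx0, hy0]
  simp

end Vale.Agent.P072
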