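import Mathlib

namespace Vale.Agent.P072

theorem eta_tangent {x w : ℝ} (hx : 0 < x) (hw : 0 < w) :
    (x * Real.log x - x) - (w * Real.log w - w) ≤ Real.log x * (x - w) := by
  have h := Real.log_le_sub_one_of_pos (div_pos hx hw)
  rw [Real.log_div hx.ne' hw.ne'] at h
  have h2 : w * (Real.log x - Real.log w) ≤ x - w := by
    have h3 := mul_le_mul_of_nonneg_left h hw.le
    have e : w * (x / w - 1) = x - w := by field_simp
    linarith
  linarith

theorem abs_log_le_of_mem {x w : ℝ} (hw : 0 < w) (h1 : w / 2 ≤ x) (h2 : x ≤ w + 1) :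
    |Real.log x| ≤ |Real.log (w / 2)| + |Real.log (w + 1)| := by
  have hx : 0 < x := by linarith
  have a1 : Real.log (w / 2) ≤ Real.log x := Real.log_le_log (by linarith) h1
  have a2 : Real.log x ≤ Real.log (w + 1) := Real.log_le_log hx h2
  have := abs_le_max_abs_abs a1 a2
  refine this.trans (max_le ?_ ?_)
  · linarith [abs_nonneg (Real.log (w + 1))]
  · linarith [abs_nonneg (Real.log (w / 2))]

/-- The entropy `∑ (x log x - x)` has a strict local maximum (with linear drop) at a vertex `w` of
the closed class. -/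
theorem vertex_ent_le {d : ℕ} (S : Submodule ℝ (Fin d → ℝ)) (c w : Fin d → ℝ) (i j : Fin d)
    (hij : i ≠ j) (C : ℝ) (hC : ∀ u ∈ S, ∀ k, |u k| ≤ C * (|u i| + |u j|))
    (hw : w - c ∈ S) (hw0 : ∀ k, 0 ≤ w k) (hwi : w i = 0) (hwj : w j = 0) :
    ∃ ε > 0, ∀ x : Fin d → ℝ, (∀ k, 0 < x k) → x - c ∈ S → x i + x j ≤ ε →
      ∑ k, (x k * Real.log (x k) - x k) ≤ ∑ k, (w k * Real.log (w k) - w k) - (x i + x j) := by
  classical
  set C' : ℝ := max C 1 with hC'
  have hC'1 : 1 ≤ C' := le_max_right _ _
  have hC'pos : 0 < C' := by linarith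
  obtain ⟨m, hm0, hm⟩ : ∃ m > 0, ∀ k, 0 < w k → m ≤ w k := by
    by_cases hne : (Finset.univ.filter (fun k => 0 < w k)).Nonempty
    · obtain ⟨k0, hk0, hmin⟩ := Finset.exists_min_image _ w hne
      exact ⟨w k0, by simpa using hk0, fun k hk => hmin k (by simp [hk])⟩
    · refine ⟨1, one_pos, fun k hk => ?_⟩
      exact absurd ⟨k, by simp [hk]⟩ hne
  set Bk : Fin d → ℝ := fun k => |Real.log (w k / 2)| + |Real.log (w k + 1)| with hBk
  have hBk0 : ∀ k, 0 ≤ Bk k := fun k => by
    simp only [hBk]; positivity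
  set B : ℝ := ∑ k, Bk k with hB
  have hB0 : 0 ≤ B := Finset.sum_nonneg (fun k _ => hBk0 k)
  refine ⟨min (Real.exp (-(C' * B + 1))) (min (1 / C') (m / (2 * C'))), by positivity, ?_⟩
  intro x hx hxS hν
  set ν : ℝ := x i + x j with hνdef
  have hνpos : 0 < ν := add_pos (hx i) (hx j)
  have h1 : ν ≤ Real.exp (-(C' * B + 1)) := le_trans hν (min_le_left _ _)
  have h2 : C' * ν ≤ 1 := by
    have : ν ≤ 1 / C' := le_trans hν (le_trans (min_le_right _ _) (min_le_left _ _))
    rw [le_div_iff₀ hC'pos] at this
    linarith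
  have h3 : C' * ν ≤ m / 2 := by
    have : ν ≤ m / (2 * C') := le_trans hν (le_trans (min_le_right _ _) (min_le_right _ _))
    rw [le_div_iff₀ (by positivity)] at this
    linarith
  have hu : x - w ∈ S := by
    have : x - w = (x - c) - (w - c) := by abel
    rw [this]; exact S.sub_mem hxS hw
  have hbound : ∀ k, |x k - w k| ≤ C' * ν := by
    intro k
    have := hC _ hu k
    simp only [Pi.sub_apply, hwi, hwj, sub_zero] at this
    rw [abs_of_pos (hx i), abs_of_pos (hx j)] at this
    calc |x k - w k| ≤ C * ν := this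
      _ ≤ C' * ν := mul_le_mul_of_nonneg_right (le_max_left _ _) hνpos.le
  have hlogν : Real.log ν ≤ -(C' * B + 1) := by
    have := Real.log_le_log hνpos h1
    rwa [Real.log_exp] at this
  have hspecial : ∀ k, w k = 0 → x k ≤ ν →
      (x k * Real.log (x k) - x k) - (w k * Real.log (w k) - w k) ≤ x k * Real.log ν := by
    intro k hwk hxk
    rw [hwk]
    have : Real.log (x k) ≤ Real.log ν := Real.log_le_log (hx k) hxk
    have := mul_le_mul_of_nonneg_left this (hx k).le
    linarith [hx k]
  have hk : ∀ k, (x k * Real.log (x k) - x k) - (w k * Real.log (w k) - w k) ≤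
      (if k = i then x i * Real.log ν else 0) + (if k = j then x j * Real.log ν else 0)
        + Bk k * (C' * ν) := by
    intro k
    have hBν : 0 ≤ Bk k * (C' * ν) := mul_nonneg (hBk0 k) (by positivity)
    rcases eq_or_ne k i with hki | hki
    · rw [hki, if_pos rfl, if_neg hij]
      have := hspecial i hwi (by linarith [hx j])
      rw [hki] at hBν
      linarith
    rcases eq_or_ne k j with hkj | hkj
    · rw [hkj, if_pos rfl, if_neg hij.symm]
      have := hspecial j hwj (by linarith [hx i])
      rw [hkj] at hBν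
      linarith
    rw [if_neg hki, if_neg hkj]
    rcases (hw0 k).eq_or_lt with hwk | hwk
    · -- w k = 0
      have hb := hbound k
      rw [← hwk, sub_zero, abs_of_pos (hx k)] at hb
      have hx1 : x k ≤ 1 := by linarith
      have hl : Real.log (x k) ≤ 0 := Real.log_nonpos (hx k).le hx1
      have := mul_nonneg (hx k).le (neg_nonneg.mpr hl)
      rw [← hwk]
      linarith [hx k]
    · have hb := hbound k
      have hmk := hm k hwk
      have hb' := abs_le.mp hb
      have hlo : w k / 2 ≤ x k := by linarith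
      have hhi : x k ≤ w k + 1 := by linarith
      have hlog := abs_log_le_of_mem hwk hlo hhi
      have ht := eta_tangent (hx k) hwk
      have : Real.log (x k) * (x k - w k) ≤ Bk k * (C' * ν) := by
        calc Real.log (x k) * (x k - w k) ≤ |Real.log (x k) * (x k - w k)| := le_abs_self _
          _ = |Real.log (x k)| * |x k - w k| := abs_mul _ _
          _ ≤ Bk k * (C' * ν) := mul_le_mul hlog hb (abs_nonneg _) (hBk0 k)
      linarith
  have hsum : ∑ k, ((x k * Real.log (x k) - x k) - (w k * Real.log (w k) - w k)) ≤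
      ∑ k, ((if k = i then x i * Real.log ν else 0) + (if k = j then x j * Real.log ν else 0)
        + Bk k * (C' * ν)) := Finset.sum_le_sum (fun k _ => hk k)
  rw [Finset.sum_sub_distrib, Finset.sum_add_distrib, Finset.sum_add_distrib,
    Finset.sum_ite_eq' Finset.univ i, Finset.sum_ite_eq' Finset.univ j, ← Finset.sum_mul] at hsum
  simp only [Finset.mem_univ, if_true] at hsum
  have hfin : ν * Real.log ν ≤ ν * (-(C' * B + 1)) := mul_le_mul_of_nonneg_left hlogν hνpos.le
  have e1 : x i * Real.log ν + x j * Real.log ν = ν * Real.log ν := by rw [hνdef]; ring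
  have e2 : (∑ k, Bk k) * (C' * ν) = ν * (C' * B) := by rw [hB]; ring
  rw [e1, e2] at hsum
  linarith

end Vale.Agent.P072
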